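import Vale.Agent.P181.R2.H151.MDefs
import Vale.Agent.P181.R2.H240.NChart

/-!
P181, row W3: a symmetric form in the kernel whose second order terms in the direction of the last
variable vanish is killed in every first argument.
-/

set_option autoImplicit false

open MvPolynomial

namespace Vale.Agent.P181.TM

open Vale.Agent.P181 Vale.Agent.P181.H536 Vale.Agent.P181.H280 Vale.Agent.P181.TN

namespace W3

variable {k b : ℕ}

/-- The form with all arguments but the first equal to `P`, as a linear functional. -/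
noncomputable def fst (F : Fm 1 (k + 1)) (P : Sn 1) : Sn 1 →ₗ[ℂ] ℂ where
  toFun u := F.curryLeft u (fun _ => P)
  map_add' x y := by rw [map_add]; rfl
  map_smul' c x := by rw [map_smul]; rfl

lemma fst_apply (F : Fm 1 (k + 1)) (P u : Sn 1) : fst F P u = F.curryLeft u (fun _ => P) := rfl

/-- The linear form with the parameters `x` and `ζ`. -/
noncomputable def pt (x ζ : ℂ) : Sn 1 := ln 1 x + ζ • X 2

lemma X2_mem : (X 2 : Sn 1) ∈ linS (1 + 2) := X_mem_linS 2

lemma pt_mem (x ζ : ℂ) : pt x ζ ∈ linS (1 + 2) :=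
  (linS (1 + 2)).add_mem (ln_mem x) ((linS (1 + 2)).smul_mem _ X2_mem)

lemma pt_eq (x ζ : ℂ) : pt x ζ = X 0 + x • X 1 + ζ • X 2 := rfl

lemma linS_le {W : Submodule ℂ (Sn 1)} (h0 : X 0 ∈ W) (h1 : X 1 ∈ W) (h2 : X 2 ∈ W) :
    linS (1 + 2) ≤ W := by
  rw [linS, Submodule.span_le]
  rintro _ ⟨i, rfl⟩
  fin_cases i
  · exact h0
  · exact h1
  · exact h2

/-- Two points with different `x` and the last variable span. -/
lemma span_two {x y ζ η : ℂ} (h : x ≠ y) {W : Submodule ℂ (Sn 1)} (hx : pt x ζ ∈ W)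
    (hy : pt y η ∈ W) (h2 : X 2 ∈ W) : linS (1 + 2) ≤ W := by
  have h1 : (X 1 : Sn 1) ∈ W := by
    have e : (y - x)⁻¹ • (pt y η - pt x ζ - (η - ζ) • X 2) = (X 1 : Sn 1) := by
      have e1 : pt y η - pt x ζ - (η - ζ) • X 2 = (y - x) • (X 1 : Sn 1) := by
        rw [pt_eq, pt_eq]; module
      rw [e1, smul_smul, inv_mul_cancel₀ (sub_ne_zero.2 h.symm), one_smul]
    rw [← e]
    exact W.smul_mem _ (W.sub_mem (W.sub_mem hy hx) (W.smul_mem _ h2))
  refine linS_le ?_ h1 h2
  have e : (X 0 : Sn 1) = pt x ζ - x • X 1 - ζ • X 2 := by rw [pt_eq]; module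
  rw [e]
  exact W.sub_mem (W.sub_mem hx (W.smul_mem _ h1)) (W.smul_mem _ h2)

/-- The determinant of three points. -/
def det3 (x y w ζ η ω : ℂ) : ℂ := (y * ω - η * w) + (w * ζ - ω * x) + (x * η - ζ * y)

/-- Three independent points span. -/
lemma span_three {x y w ζ η ω : ℂ} (h : det3 x y w ζ η ω ≠ 0) {W : Submodule ℂ (Sn 1)}
    (hx : pt x ζ ∈ W) (hy : pt y η ∈ W) (hw : pt w ω ∈ W) : linS (1 + 2) ≤ W := by
  have key : ∀ v : Sn 1, det3 x y w ζ η ω • v ∈ W → v ∈ W := by
    intro v hv
    have e : v = (det3 x y w ζ η ω)⁻¹ • (det3 x y w ζ η ω • v) := by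
      rw [smul_smul, inv_mul_cancel₀ h, one_smul]
    rw [e]
    exact W.smul_mem _ hv
  refine linS_le (key _ ?_) (key _ ?_) (key _ ?_)
  · have e : det3 x y w ζ η ω • (X 0 : Sn 1) =
        (y * ω - η * w) • pt x ζ + (w * ζ - ω * x) • pt y η + (x * η - ζ * y) • pt w ω := by
      rw [det3, pt_eq, pt_eq, pt_eq]; module
    rw [e]
    exact W.add_mem (W.add_mem (W.smul_mem _ hx) (W.smul_mem _ hy)) (W.smul_mem _ hw)
  · have e : det3 x y w ζ η ω • (X 1 : Sn 1) =
        (η - ω) • pt x ζ + (ω - ζ) • pt y η + (ζ - η) • pt w ω := by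
      rw [det3, pt_eq, pt_eq, pt_eq]; module
    rw [e]
    exact W.add_mem (W.add_mem (W.smul_mem _ hx) (W.smul_mem _ hy)) (W.smul_mem _ hw)
  · have e : det3 x y w ζ η ω • (X 2 : Sn 1) =
        (w - y) • pt x ζ + (x - w) • pt y η + (y - x) • pt w ω := by
      rw [det3, pt_eq, pt_eq, pt_eq]; module
    rw [e]
    exact W.add_mem (W.add_mem (W.smul_mem _ hx) (W.smul_mem _ hy)) (W.smul_mem _ hw)

/-- The product over the whole index set after changing one factor. -/
lemma prod_one (p : Fin b → Sn 1) (i : Fin b) (v : Sn 1) (t : ℂ) :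
    ∏ l, Function.update p i (p i + t • v) l =
      ∏ l, p l + t • (v * ∏ l ∈ Finset.univ.erase i, p l) := by
  rw [← Finset.mul_prod_erase Finset.univ _ (Finset.mem_univ i),
    ← Finset.mul_prod_erase Finset.univ p (Finset.mem_univ i), Function.update_self]
  have h1 : ∏ l ∈ Finset.univ.erase i, Function.update p i (p i + t • v) l =
      ∏ l ∈ Finset.univ.erase i, p l :=
    Finset.prod_congr rfl fun l hl => by rw [Function.update_of_ne (Finset.ne_of_mem_erase hl)]
  rw [h1, add_mul, smul_mul_assoc]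

lemma isK_prod {a : ℕ} {F : Fm 1 a} (hK : IsK (linS (1 + 2)) b F) (p : Fin b → Sn 1)
    (hp : ∀ l, p l ∈ linS (1 + 2)) : F (fun _ => ∏ l, p l) = 0 := by
  have h1 := hK (Finset.univ.val.map p) (by rw [Multiset.card_map, Finset.card_val,
    Finset.card_univ, Fintype.card_fin]) (by
      intro x hx
      obtain ⟨l, -, rfl⟩ := Multiset.mem_map.1 hx
      exact hp l)
  exact h1

/-- The generic case. -/
theorem generic (F : Fm 1 (k + 1)) (hsy : IsSymm F) (hK : IsK (linS (1 + 2)) b F)
    (x ζ : Fin b → ℂ) (hx : Function.Injective x)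
    (hd : ∀ i j l : Fin b, i ≠ j → i ≠ l → j ≠ l → det3 (x i) (x j) (x l) (ζ i) (ζ j) (ζ l) ≠ 0)
    (hpsi : ∀ i j : Fin b, i ≠ j →
      F.curryLeft (X 2 ^ 2 * ∏ l ∈ (Finset.univ.erase i).erase j, pt (x l) (ζ l))
        (fun _ => ∏ l, pt (x l) (ζ l)) = 0) :
    ∀ (r : ℕ) (T : Finset (Fin b)), T.card = r → ∀ g ∈ linS (1 + 2) ^ r,
      fst F (∏ l, pt (x l) (ζ l)) (g * ∏ l ∈ Tᶜ, pt (x l) (ζ l)) = 0 := by
  classical
  set p : Fin b → Sn 1 := fun l => pt (x l) (ζ l) with hp
  have hpm : ∀ l, p l ∈ linS (1 + 2) := fun l => pt_mem _ _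
  set P : Sn 1 := ∏ l, p l with hP
  intro r
  induction r with
  | zero =>
    intro T hT g hg
    rw [Finset.card_eq_zero] at hT
    subst hT
    rw [pow_zero, Submodule.mem_one] at hg
    obtain ⟨c, rfl⟩ := hg
    rw [Finset.compl_empty, ← Algebra.smul_def, map_smul, fst_apply]
    have h1 : F.curryLeft P (fun _ => P) = F (fun _ => P) := by
      rw [MultilinearMap.curryLeft_apply]
      congr 1
      funext i
      refine Fin.cases ?_ (fun j => ?_) i <;> rfl
    rw [h1, isK_prod hK p hpm, smul_zero]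
  | succ r ih =>
    intro T hT g hg
    -- absorbing a factor
    have habs : ∀ i ∈ T, ∀ h ∈ linS (1 + 2) ^ r, fst F P (p i * h * ∏ l ∈ Tᶜ, p l) = 0 := by
      intro i hi h hh
      have h1 := ih (T.erase i) (by rw [Finset.card_erase_of_mem hi, hT]; rfl) h hh
      have h2 : (T.erase i)ᶜ = insert i Tᶜ := by
        rw [Finset.compl_erase]
      rw [h2, Finset.prod_insert (by simpa using hi)] at h1
      rw [← h1]
      congr 1
      ring
    rw [pow_succ'] at hg
    refine Submodule.mul_induction_on hg ?_ ?_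
    · intro v hv h hh
      rcases Nat.lt_or_ge r 1 with hr | hr
      · -- one factor
        have hr0 : r = 0 := by omega
        subst hr0
        obtain ⟨i, hi⟩ := Finset.card_eq_one.1 hT
        subst hi
        rw [pow_zero, Submodule.mem_one] at hh
        obtain ⟨c, rfl⟩ := hh
        have h1 : v * algebraMap ℂ (Sn 1) c * ∏ l ∈ ({i} : Finset (Fin b))ᶜ, p l =
            c • (v * ∏ l ∈ Finset.univ.erase i, p l) := by
          have e1 : ({i} : Finset (Fin b))ᶜ = Finset.univ.erase i := by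
            ext l; simp
          rw [e1, Algebra.smul_def]
          ring
        rw [h1, map_smul, fst_apply, firstSlot hsy P (v * ∏ l ∈ Finset.univ.erase i, p l),
          smul_zero]
        intro t
        rw [hP, ← prod_one p i v t]
        apply isK_prod hK
        intro l
        by_cases hl : l = i
        · subst hl
          rw [Function.update_self]
          exact Submodule.add_mem _ (hpm l) (Submodule.smul_mem _ _ hv)
        · rw [Function.update_of_ne hl]
          exact hpm l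
      · rcases Nat.lt_or_ge r 2 with hr2 | hr2
        · -- two factors
          have hr1 : r = 1 := by omega
          subst hr1
          obtain ⟨i, j, hij, rfl⟩ := Finset.card_eq_two.1 hT
          rw [pow_one] at hh
          have hT2 : ({i, j} : Finset (Fin b))ᶜ = (Finset.univ.erase i).erase j := by
            ext l
            simp only [Finset.mem_compl, Finset.mem_insert, Finset.mem_singleton,
              Finset.mem_erase, Finset.mem_univ, and_true]
            tauto
          -- the kernel in the first factor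
          have step : ∀ u ∈ linS (1 + 2), ∀ y : Sn 1,
              (∀ i' ∈ ({i, j} : Finset (Fin b)),
                fst F P (p i' * y * ∏ l ∈ ({i, j} : Finset (Fin b))ᶜ, p l) = 0) →
              fst F P (X 2 * y * ∏ l ∈ ({i, j} : Finset (Fin b))ᶜ, p l) = 0 →
              fst F P (u * y * ∏ l ∈ ({i, j} : Finset (Fin b))ᶜ, p l) = 0 := by
            intro u hu y h1 h2
            let W : Submodule ℂ (Sn 1) := LinearMap.ker (fst F P ∘ₗ
              LinearMap.mulRight ℂ (y * ∏ l ∈ ({i, j} : Finset (Fin b))ᶜ, p l))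
            have hW : ∀ u, u ∈ W ↔
                fst F P (u * y * ∏ l ∈ ({i, j} : Finset (Fin b))ᶜ, p l) = 0 := by
              intro u
              rw [LinearMap.mem_ker, LinearMap.comp_apply, LinearMap.mulRight_apply, mul_assoc]
            rw [← hW]
            refine span_two (x := x i) (y := x j) (ζ := ζ i) (η := ζ j) (fun h => hij (hx h))
              ((hW _).2 (h1 i (by simp))) ((hW _).2 (h1 j (by simp))) ((hW _).2 h2) hu
          apply step v hv h
          · intro i' hi'
            exact habs i' hi' h (by rw [pow_one]; exact hh)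
          · rw [mul_comm (X 2) h]
            apply step h hh
            · intro i' hi'
              exact habs i' hi' (X 2) (by rw [pow_one]; exact X2_mem)
            · rw [← pow_two, hT2]
              exact hpsi i j hij
        · -- at least three factors
          obtain ⟨U, hU, hU3⟩ := Finset.exists_subset_card_eq (s := T) (n := 3) (by omega)
          obtain ⟨i, j, l, hij, hil, hjl, rfl⟩ := Finset.card_eq_three.1 hU3
          let W : Submodule ℂ (Sn 1) := LinearMap.ker (fst F P ∘ₗ
            LinearMap.mulRight ℂ (h * ∏ l ∈ Tᶜ, p l))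
          have hW : ∀ u, u ∈ W ↔ fst F P (u * h * ∏ l ∈ Tᶜ, p l) = 0 := by
            intro u
            rw [LinearMap.mem_ker, LinearMap.comp_apply, LinearMap.mulRight_apply, mul_assoc]
          rw [← hW]
          refine span_three (hd i j l hij hil hjl) ((hW _).2 (habs i (hU (by simp)) h hh))
            ((hW _).2 (habs j (hU (by simp)) h hh)) ((hW _).2 (habs l (hU (by simp)) h hh)) hv
    · intro y z hy hz
      rw [add_mul, map_add, hy, hz, add_zero]

/-- The generic case, all first arguments. -/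
theorem generic_all (F : Fm 1 (k + 1)) (hsy : IsSymm F) (hK : IsK (linS (1 + 2)) b F)
    (x ζ : Fin b → ℂ) (hx : Function.Injective x)
    (hd : ∀ i j l : Fin b, i ≠ j → i ≠ l → j ≠ l → det3 (x i) (x j) (x l) (ζ i) (ζ j) (ζ l) ≠ 0)
    (hpsi : ∀ i j : Fin b, i ≠ j →
      F.curryLeft (X 2 ^ 2 * ∏ l ∈ (Finset.univ.erase i).erase j, pt (x l) (ζ l))
        (fun _ => ∏ l, pt (x l) (ζ l)) = 0) {θ : Sn 1} (hθ : θ ∈ linS (1 + 2) ^ b) :
    F.curryLeft θ (fun _ => ∏ l, pt (x l) (ζ l)) = 0 := by
  have h1 := generic F hsy hK x ζ hx hd hpsi b Finset.univ (by simp) θ hθ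
  rw [Finset.compl_univ, Finset.prod_empty, mul_one, fst_apply] at h1
  exact h1

lemma exists_smul_X2 {z : Sn 1} (hz : z ∈ ZZ 1) : ∃ c : ℂ, z = c • (X 2 : Sn 1) := by
  rw [ZZ] at hz
  induction hz using Submodule.span_induction with
  | mem x hx =>
    obtain ⟨i, rfl⟩ := hx
    refine ⟨1, ?_⟩
    rw [one_smul]
    fin_cases i
    rfl
  | zero => exact ⟨0, by rw [zero_smul]⟩
  | add x y _ _ hx hy =>
    obtain ⟨c, rfl⟩ := hx
    obtain ⟨d, rfl⟩ := hy
    exact ⟨c + d, by rw [add_smul]⟩
  | smul r x _ hx =>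
    obtain ⟨c, rfl⟩ := hx
    exact ⟨r * c, by rw [smul_smul]⟩

lemma vander {i j l : Fin b} (hij : i ≠ j) (hil : i ≠ l) (hjl : j ≠ l) :
    ((j : ℂ) - i) * ((l : ℂ) - i) * ((l : ℂ) - j) ≠ 0 := by
  have h : ∀ u v : Fin b, u ≠ v → ((v : ℂ) - u) ≠ 0 := by
    intro u v huv h
    apply huv
    rw [sub_eq_zero] at h
    exact Fin.ext (by exact_mod_cast h.symm)
  exact mul_ne_zero (mul_ne_zero (h _ _ hij) (h _ _ hil)) (h _ _ hjl)

end W3

open W3 in
/-- **Row W3.** -/
theorem isK_of_psi {k b : ℕ} (F : Fm 1 (k + 1)) (hsy : IsSymm F)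
    (hK : IsK (linS (1 + 2)) b F)
    (hpsi : ∀ (x : Fin b → ℂ), Function.Injective x → ∀ (ζ : Fin b → ℂ) (i j : Fin b), i ≠ j →
      F.curryLeft (X 2 ^ 2 * ∏ l ∈ (Finset.univ.erase i).erase j, (ln 1 (x l) + ζ l • X 2))
        (fun _ => ∏ l, (ln 1 (x l) + ζ l • X 2)) = 0)
    {θ : Sn 1} (hθ : θ ∈ linS (1 + 2) ^ b) : IsK (linS (1 + 2)) b (F.curryLeft θ) := by
  classical
  apply isK_of_chart
  intro x z hz
  choose ζ hζ using fun j => exists_smul_X2 (hz j)
  -- the line through the point in a generic direction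
  let X' : Fin b → Polynomial ℂ := fun l =>
    Polynomial.C (x l) + Polynomial.X * Polynomial.C (l : ℂ)
  let Z' : Fin b → Polynomial ℂ := fun l =>
    Polynomial.C (ζ l) + Polynomial.X * Polynomial.C ((l : ℂ) ^ 2)
  have eX : ∀ l (t : ℂ), (X' l).eval t = x l + t * l := by
    intro l t
    simp [X']
  have eZ : ∀ l (t : ℂ), (Z' l).eval t = ζ l + t * (l : ℂ) ^ 2 := by
    intro l t
    simp [Z']
  let D2 : Fin b × Fin b → Polynomial ℂ := fun q => X' q.1 - X' q.2
  let D3 : Fin b × Fin b × Fin b → Polynomial ℂ := fun q =>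
    (X' q.2.1 * Z' q.2.2 - Z' q.2.1 * X' q.2.2) + (X' q.2.2 * Z' q.1 - Z' q.2.2 * X' q.1) +
      (X' q.1 * Z' q.2.1 - Z' q.1 * X' q.2.1)
  have h2 : ∀ q : Fin b × Fin b, q.1 ≠ q.2 → D2 q ≠ 0 := by
    intro q hq h0
    have e1 := congrArg (fun P => Polynomial.eval 1 P) h0
    have e0 := congrArg (fun P => Polynomial.eval 0 P) h0
    simp only [D2, Polynomial.eval_sub, eX, Polynomial.eval_zero] at e1 e0
    apply hq
    have e2 : ((q.1 : ℕ) : ℂ) = ((q.2 : ℕ) : ℂ) := by linear_combination e1 - e0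
    exact Fin.ext (by exact_mod_cast e2)
  have h3 : ∀ q : Fin b × Fin b × Fin b, q.1 ≠ q.2.1 → q.1 ≠ q.2.2 → q.2.1 ≠ q.2.2 →
      D3 q ≠ 0 := by
    intro q ha hb hc h0
    have e1 := congrArg (fun P => Polynomial.eval 1 P) h0
    have e0 := congrArg (fun P => Polynomial.eval 0 P) h0
    have em := congrArg (fun P => Polynomial.eval (-1) P) h0
    simp only [D3, Polynomial.eval_sub, Polynomial.eval_add, Polynomial.eval_mul, eX, eZ,
      Polynomial.eval_zero] at e1 e0 em
    apply vander ha hb hc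
    linear_combination (1 / 2) * e1 + (1 / 2) * em - e0
  -- the product of the conditions
  let Q : Polynomial ℂ :=
    (∏ q ∈ Finset.univ.filter (fun q : Fin b × Fin b => q.1 ≠ q.2), D2 q) *
      ∏ q ∈ Finset.univ.filter (fun q : Fin b × Fin b × Fin b =>
        q.1 ≠ q.2.1 ∧ q.1 ≠ q.2.2 ∧ q.2.1 ≠ q.2.2), D3 q
  have hQ : Q ≠ 0 := by
    apply mul_ne_zero
    · rw [Finset.prod_ne_zero_iff]
      intro q hq
      exact h2 q (Finset.mem_filter.1 hq).2
    · rw [Finset.prod_ne_zero_iff]
      intro q hq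
      obtain ⟨-, ha, hb, hc⟩ := Finset.mem_filter.1 hq
      exact h3 q ha hb hc
  -- the polynomial
  obtain ⟨R, hR⟩ := poly_exists (F.curryLeft θ) (fun _ => ∏ l,
    (Polynomial.C (pt (x l) (ζ l)) +
      Polynomial.X * Polynomial.C ((l : ℂ) • X 1 + ((l : ℂ) ^ 2) • X 2 : Sn 1)))
  have hR' : ∀ t : ℂ, R.eval t =
      F.curryLeft θ (fun _ => ∏ l, pt (x l + t * l) (ζ l + t * (l : ℂ) ^ 2)) := by
    intro t
    rw [hR]
    congr 1
    funext _
    rw [Polynomial.eval_prod]
    apply Finset.prod_congr rfl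
    intro l _
    rw [Polynomial.eval_add, Polynomial.eval_C, Polynomial.eval_mul, Polynomial.eval_X,
      Polynomial.eval_C, ← Algebra.smul_def, pt_eq, pt_eq]
    module
  have hRQ : Q * R = 0 := by
    apply Polynomial.funext
    intro t
    rw [Polynomial.eval_zero, Polynomial.eval_mul]
    by_cases hq : Q.eval t = 0
    · rw [hq, zero_mul]
    · have hq' := hq
      simp only [Q, Polynomial.eval_mul, Polynomial.eval_prod] at hq'
      have hq1 := left_ne_zero_of_mul hq'
      have hq2 := right_ne_zero_of_mul hq'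
      rw [Finset.prod_ne_zero_iff] at hq1 hq2
      rw [hR', generic_all F hsy hK _ _ ?_ ?_ ?_ hθ, mul_zero]
      · intro i j hij
        by_contra hne
        apply hq1 (i, j) (Finset.mem_filter.2 ⟨Finset.mem_univ _, hne⟩)
        simp only [D2, Polynomial.eval_sub, eX]
        exact sub_eq_zero.2 hij
      · intro i j l hij hil hjl hdet
        apply hq2 (i, j, l) (Finset.mem_filter.2 ⟨Finset.mem_univ _, hij, hil, hjl⟩)
        simp only [D3, Polynomial.eval_sub, Polynomial.eval_add, Polynomial.eval_mul, eX, eZ]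
        exact hdet
      · intro i j hij
        refine hpsi _ ?_ _ i j hij
        intro i' j' hij'
        by_contra hne
        apply hq1 (i', j') (Finset.mem_filter.2 ⟨Finset.mem_univ _, hne⟩)
        simp only [D2, Polynomial.eval_sub, eX]
        exact sub_eq_zero.2 hij'
  have hR0 : R = 0 := by
    rcases mul_eq_zero.1 hRQ with h | h
    · exact absurd h hQ
    · exact h
  have h4 := hR' 0
  rw [hR0, Polynomial.eval_zero] at h4
  rw [h4]
  congr 1
  funext _
  apply Finset.prod_congr rfl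
  intro l _
  rw [hζ l, zero_mul, zero_mul, add_zero, add_zero]
  rfl

end Vale.Agent.P181.TM
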