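import Vale.Agent.P181.R2.H959.WDefs

/-!
P181, row W10: the highest weights of `Sym^b (Sym^a ℂ^m)` are partitions.
-/

set_option autoImplicit false

open scoped TensorProduct

namespace Vale.Agent.P181.FR

open Vale.Agent.P181 Vale.Agent.P181.H280

namespace W10

universe u v

section PC

variable {V : Type u} [AddCommGroup V] [Module ℂ V] {W : Type v} [AddCommGroup W] [Module ℂ W]

/-- Polynomial curves. -/
def PC (f : ℂ → V) : Prop := ∃ c : ℕ →₀ V, ∀ t, f t = c.sum (fun k v => t ^ k • v)

lemma PC.mono (k : ℕ) (v : V) : PC (fun t : ℂ => t ^ k • v) := by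
  refine ⟨Finsupp.single k v, fun t => ?_⟩
  exact (Finsupp.sum_single_index (h := fun (k : ℕ) (v : V) => t ^ k • v) (smul_zero _)).symm

lemma PC.const (v : V) : PC (fun _ : ℂ => v) := by
  have h := PC.mono 0 v
  simpa using h

lemma PC.zero : PC (fun _ : ℂ => (0 : V)) := PC.const 0

lemma PC.add {f g : ℂ → V} (hf : PC f) (hg : PC g) : PC (fun t => f t + g t) := by
  classical
  obtain ⟨c, hc⟩ := hf
  obtain ⟨d, hd⟩ := hg
  refine ⟨c + d, fun t => ?_⟩
  change f t + g t = _
  rw [hc, hd, Finsupp.sum_add_index' (fun _ => smul_zero _) (fun _ _ _ => smul_add _ _ _)]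

lemma PC.sum {κ : Type*} (s : Finset κ) (f : κ → ℂ → V) (h : ∀ i ∈ s, PC (f i)) :
    PC (fun t => ∑ i ∈ s, f i t) := by
  classical
  induction s using Finset.induction_on with
  | empty => simpa using PC.zero
  | insert a s ha ih =>
    have h1 : (fun t => ∑ i ∈ insert a s, f i t) = fun t => f a t + ∑ i ∈ s, f i t := by
      funext t
      rw [Finset.sum_insert ha]
    rw [h1]
    exact (h a (Finset.mem_insert_self _ _)).add (ih fun i hi => h i (Finset.mem_insert_of_mem hi))

/-- Multilinear maps of polynomial curves. -/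
lemma PC.multi {n : ℕ} (F : MultilinearMap ℂ (fun _ : Fin n => V) W) (f : Fin n → ℂ → V)
    (h : ∀ i, PC (f i)) : PC (fun t => F (fun i => f i t)) := by
  classical
  choose c hc using h
  have h1 : (fun t => F (fun i => f i t)) = fun t : ℂ =>
      ∑ r ∈ Fintype.piFinset (fun i => (c i).support), t ^ (∑ i, r i) • F (fun i => c i (r i)) := by
    funext t
    have h2 : (fun i => f i t) = fun i => ∑ k ∈ (c i).support, t ^ k • c i k := by
      funext i
      rw [hc]
      rfl
    rw [h2, MultilinearMap.map_sum_finset]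
    apply Finset.sum_congr rfl
    intro r _
    rw [MultilinearMap.map_smul_univ, Finset.prod_pow_eq_pow_sum]
  rw [h1]
  exact PC.sum _ _ fun r _ => PC.mono _ _

lemma PC.map (L : V →ₗ[ℂ] W) {f : ℂ → V} (h : PC f) : PC (fun t => L (f t)) := by
  obtain ⟨c, hc⟩ := h
  have h1 : (fun t => L (f t)) = fun t : ℂ => ∑ k ∈ c.support, t ^ k • L (c k) := by
    funext t
    rw [hc, Finsupp.sum, map_sum]
    exact Finset.sum_congr rfl fun k _ => map_smul _ _ _
  rw [h1]
  exact PC.sum _ _ fun r _ => PC.mono _ _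

lemma PC.poly {f : ℂ → ℂ} (h : PC f) : ∃ q : Polynomial ℂ, ∀ t, q.eval t = f t := by
  obtain ⟨c, hc⟩ := h
  refine ⟨∑ k ∈ c.support, Polynomial.C (c k) * Polynomial.X ^ k, fun t => ?_⟩
  rw [hc, Polynomial.eval_finsetSum, Finsupp.sum]
  apply Finset.sum_congr rfl
  intro k _
  rw [Polynomial.eval_mul, Polynomial.eval_C, Polynomial.eval_pow, Polynomial.eval_X,
    smul_eq_mul, mul_comm]

end PC

/-- Functoriality of symmetric powers on polynomial curves of linear maps. -/
lemma PC.symMap {V W : Type u} [AddCommGroup V] [Module ℂ V] [AddCommGroup W] [Module ℂ W]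
    (n : ℕ) (g : ℂ → V →ₗ[ℂ] W) (hg : ∀ v, PC (fun t => g t v)) (x : Sym[ℂ]^n V) :
    PC (fun t => Vale.Agent.P181.symMap n (g t) x) := by
  have hx : x ∈ Submodule.span ℂ (Set.range (SymmetricPower.tprod ℂ (ι := Fin n) (M := V))) := by
    rw [SymmetricPower.span_tprod_eq_top]
    trivial
  induction hx using Submodule.span_induction with
  | mem x hx =>
    obtain ⟨v, rfl⟩ := hx
    have h1 : (fun t => Vale.Agent.P181.symMap n (g t) (SymmetricPower.tprod ℂ v)) =
        fun t => SymmetricPower.tprod ℂ (fun i => g t (v i)) := by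
      funext t
      rw [symMap_tprod]
    rw [h1]
    exact PC.multi _ _ fun i => hg (v i)
  | zero =>
    simp only [map_zero]
    exact PC.zero
  | add x y _ _ hx hy =>
    simp only [map_add]
    exact hx.add hy
  | smul c x _ hx =>
    simp only [map_smul]
    exact PC.map (c • LinearMap.id) hx

lemma pleth_mul {b a m : ℕ} (g h : Matrix (Fin m) (Fin m) ℂ) (x : Pleth b a m) :
    plethAct b a m (g * h) x = plethAct b a m g (plethAct b a m h x) := by
  have h1 := H54.symMap_comp_apply b (symMap a (Matrix.toLin' h)) (symMap a (Matrix.toLin' g)) x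
  have h2 : symMap a (Matrix.toLin' g) ∘ₗ symMap a (Matrix.toLin' h) =
      symMap a (Matrix.toLin' (g * h)) := by
    apply LinearMap.ext
    intro y
    rw [LinearMap.comp_apply, H54.symMap_comp_apply, Matrix.toLin'_mul]
  rw [h2] at h1
  exact h1.symm

lemma pleth_one {b a m : ℕ} (x : Pleth b a m) : plethAct b a m 1 x = x := by
  have h1 : symMap a (Matrix.toLin' (1 : Matrix (Fin m) (Fin m) ℂ)) = LinearMap.id := by
    apply LinearMap.ext
    intro y
    rw [Matrix.toLin'_one, H54.symMap_id_apply, LinearMap.id_apply]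
  change symMap b (symMap a (Matrix.toLin' 1)) x = x
  rw [h1]
  exact H54.symMap_id_apply b x

lemma pleth_PC {b a m : ℕ} (A E : Matrix (Fin m) (Fin m) ℂ) (x : Pleth b a m)
    (φ : Pleth b a m →ₗ[ℂ] ℂ) :
    ∃ q : Polynomial ℂ, ∀ t, q.eval t = φ (plethAct b a m (A + t • E) x) := by
  have h1 : PC (fun t : ℂ => symMap b (symMap a (Matrix.toLin' (A + t • E))) x) := by
    apply PC.symMap b (fun t : ℂ => symMap a (Matrix.toLin' (A + t • E)))
    intro y
    apply PC.symMap a (fun t : ℂ => Matrix.toLin' (A + t • E))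
    intro v
    have h2 : (fun t : ℂ => Matrix.toLin' (A + t • E) v) =
        fun t => Matrix.toLin' A v + t ^ 1 • Matrix.toLin' E v := by
      funext t
      rw [map_add, map_smul, LinearMap.add_apply, LinearMap.smul_apply, pow_one]
    rw [h2]
    exact (PC.const _).add (PC.mono _ _)
  exact (PC.map φ h1).poly

section Mat

variable {m : ℕ}

/-- the matrix `B(t)` -/
noncomputable def Bt (i j : Fin m) (t : ℂ) : Matrix (Fin m) (Fin m) ℂ :=
  1 + (t - 1) • Matrix.single i i 1 + (t⁻¹ - 1) • Matrix.single j j 1 + Matrix.single i j 1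

/-- the matrix `w` -/
noncomputable def Wm (i j : Fin m) : Matrix (Fin m) (Fin m) ℂ :=
  1 - Matrix.single i i 1 - Matrix.single j j 1 - Matrix.single i j 1 + Matrix.single j i 1

lemma mat_id {i j : Fin m} (hij : i ≠ j) {t : ℂ} (ht : t ≠ 0) :
    (1 : Matrix (Fin m) (Fin m) ℂ) + t • Matrix.single j i 1 =
      (Wm i j + t⁻¹ • Matrix.single i i 1) * Bt i j t := by
  set a : Matrix (Fin m) (Fin m) ℂ := Matrix.single i i 1 with ha
  set b : Matrix (Fin m) (Fin m) ℂ := Matrix.single j j 1 with hb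
  set c : Matrix (Fin m) (Fin m) ℂ := Matrix.single i j 1 with hc
  set d : Matrix (Fin m) (Fin m) ℂ := Matrix.single j i 1 with hd
  have aa : a * a = a := by rw [ha, Matrix.single_mul_single_same, mul_one]
  have ab : a * b = 0 := by rw [ha, hb, Matrix.single_mul_single_of_ne _ _ _ _ hij]
  have ac : a * c = c := by rw [ha, hc, Matrix.single_mul_single_same, mul_one]
  have ba : b * a = 0 := by rw [ha, hb, Matrix.single_mul_single_of_ne _ _ _ _ hij.symm]
  have bb : b * b = b := by rw [hb, Matrix.single_mul_single_same, mul_one]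
  have bc : b * c = 0 := by rw [hb, hc, Matrix.single_mul_single_of_ne _ _ _ _ hij.symm]
  have ca : c * a = 0 := by rw [ha, hc, Matrix.single_mul_single_of_ne _ _ _ _ hij.symm]
  have cb : c * b = c := by rw [hb, hc, Matrix.single_mul_single_same, mul_one]
  have cc : c * c = 0 := by rw [hc, Matrix.single_mul_single_of_ne _ _ _ _ hij.symm]
  have da : d * a = d := by rw [ha, hd, Matrix.single_mul_single_same, mul_one]
  have db : d * b = 0 := by rw [hb, hd, Matrix.single_mul_single_of_ne _ _ _ _ hij]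
  have dc : d * c = b := by rw [hb, hc, hd, Matrix.single_mul_single_same, mul_one]
  have hst : t⁻¹ * t = 1 := inv_mul_cancel₀ ht
  rw [Wm, Bt, ← ha, ← hb, ← hc, ← hd]
  simp only [mul_add, add_mul, sub_mul, smul_mul_assoc, mul_smul_comm, one_mul, mul_one,
    aa, ab, ac, ba, bb, bc, ca, cb, cc, da, db, dc, smul_zero]
  linear_combination (norm := module) -hst • a

end Mat

lemma Bt_diag {m : ℕ} {i j : Fin m} (hij : i ≠ j) (t : ℂ) (k : Fin m) :
    Bt i j t k k = if k = i then t else if k = j then t⁻¹ else 1 := by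
  simp only [Bt, Matrix.add_apply, Matrix.smul_apply, Matrix.one_apply_eq, Matrix.single_apply,
    smul_eq_mul]
  by_cases h1 : k = i
  · subst h1
    rw [if_pos ⟨rfl, rfl⟩, if_neg (fun h => hij h.1.symm), if_neg (fun h => hij h.2.symm), if_pos rfl]
    ring
  · by_cases h2 : k = j
    · subst h2
      rw [if_neg (fun h => hij h.1), if_pos ⟨rfl, rfl⟩, if_neg (fun h => hij h.1), if_neg h1,
        if_pos rfl]
      ring
    · rw [if_neg (fun h => h1 h.1.symm), if_neg (fun h => h2 h.1.symm),
        if_neg (fun h => h1 h.1.symm), if_neg h1, if_neg h2]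
      ring

lemma Bt_borel {m : ℕ} {i j : Fin m} (hij : i < j) {t : ℂ} (ht : t ≠ 0) :
    IsBorel (Bt i j t) := by
  constructor
  · intro k l hkl
    have h0 : k ≠ l := (ne_of_gt hkl)
    simp only [Bt, Matrix.add_apply, Matrix.smul_apply, Matrix.one_apply_ne h0,
      Matrix.single_apply, smul_eq_mul]
    rw [if_neg (fun h => h0 (h.1.symm.trans h.2)), if_neg (fun h => h0 (h.1.symm.trans h.2)),
      if_neg (fun h => ?_)]
    · ring
    · obtain ⟨h1, h2⟩ := h
      subst h1
      subst h2
      exact lt_asymm hij hkl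
  · intro k
    rw [Bt_diag (ne_of_lt hij)]
    split_ifs
    · exact ht
    · exact inv_ne_zero ht
    · exact one_ne_zero

lemma Bt_prod {m : ℕ} {i j : Fin m} (hij : i ≠ j) (t : ℂ) (lam : Fin m → ℕ) :
    ∏ k, Bt i j t k k ^ lam k = t ^ lam i * (t⁻¹) ^ lam j := by
  rw [Finset.prod_eq_mul i j hij]
  · rw [Bt_diag hij, Bt_diag hij, if_pos rfl, if_neg hij.symm, if_pos rfl]
  · intro k _ hk
    rw [Bt_diag hij, if_neg hk.1, if_neg hk.2, one_pow]
  · intro h
    exact absurd (Finset.mem_univ _) h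
  · intro h
    exact absurd (Finset.mem_univ _) h

/-- The polynomial argument. -/
lemma poly_arg {p q : Polynomial ℂ} (hp : p ≠ 0) {k l : ℕ}
    (h : ∀ t : ℂ, t ≠ 0 → p.eval t = t ^ k * (t⁻¹) ^ l * q.eval t⁻¹) : l ≤ k := by
  have h1 : Polynomial.X ^ (q.natDegree + l) * p = Polynomial.X ^ k * q.reverse := by
    apply Polynomial.eq_of_infinite_eval_eq
    apply Set.Infinite.mono (s := ({0} : Set ℂ)ᶜ)
    · intro t ht
      have ht0 : t ≠ 0 := ht
      have h2 : q.reverse.eval t = t ^ q.natDegree * q.eval t⁻¹ := by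
        let _ : Invertible (t⁻¹) := ⟨t, mul_inv_cancel₀ ht0, inv_mul_cancel₀ ht0⟩
        have h3 := Polynomial.eval₂_reverse_mul_pow (RingHom.id ℂ) (t⁻¹) q
        have h4 : ⅟(t⁻¹) = t := rfl
        rw [h4] at h3
        have h5 : Polynomial.eval t⁻¹ q = Polynomial.eval t q.reverse * (t⁻¹) ^ q.natDegree := h3.symm
        rw [h5, mul_comm, mul_assoc, ← mul_pow, inv_mul_cancel₀ ht0, one_pow, mul_one]
      rw [Set.mem_ofPred_eq, Polynomial.eval_mul, Polynomial.eval_mul, Polynomial.eval_pow,
        Polynomial.eval_X, Polynomial.eval_pow, Polynomial.eval_X, h t ht0, h2, pow_add]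
      have h6 : t ^ l * (t⁻¹) ^ l = 1 := by rw [← mul_pow, mul_inv_cancel₀ ht0, one_pow]
      linear_combination (t ^ q.natDegree * t ^ k * Polynomial.eval t⁻¹ q) * h6
    · exact (Set.finite_singleton _).infinite_compl
  have h2 := congrArg Polynomial.natDegree h1
  rw [Polynomial.natDegree_mul (pow_ne_zero _ Polynomial.X_ne_zero) hp,
    Polynomial.natDegree_X_pow] at h2
  have h3 : (Polynomial.X ^ k * q.reverse).natDegree ≤ k + q.natDegree := by
    refine (Polynomial.natDegree_mul_le).trans ?_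
    rw [Polynomial.natDegree_X_pow]
    exact Nat.add_le_add_left (Polynomial.reverse_natDegree_le q) k
  omega

end W10

open W10 in
/-- **Row W10.** The highest weights are antitone. -/
theorem hw_antitone {b a m : ℕ} {lam : Fin m → ℕ} {x : Pleth b a m}
    (hw : x ∈ hwSpace lam (plethAct b a m)) (h0 : x ≠ 0) : ∀ i j : Fin m, i ≤ j → lam j ≤ lam i := by
  intro i j hij
  rcases eq_or_lt_of_le hij with rfl | hlt
  · exact le_rfl
  obtain ⟨φ, hφ⟩ : ∃ φ : Pleth b a m →ₗ[ℂ] ℂ, φ x ≠ 0 := by
    by_contra hcon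
    push Not at hcon
    apply h0
    exact symEval_separates (M := Sym[ℂ]^a (Fin m → ℂ)) Set.univ Submodule.span_univ x
      (fun lam _ => hcon (symEval lam))
  obtain ⟨p, hp⟩ := pleth_PC 1 (Matrix.single j i 1) x φ
  obtain ⟨q, hq⟩ := pleth_PC (Wm i j) (Matrix.single i i 1) x φ
  have hp0 : p ≠ 0 := by
    rintro rfl
    have h1 := hp 0
    rw [Polynomial.eval_zero, zero_smul, add_zero, pleth_one] at h1
    exact hφ h1.symm
  apply poly_arg hp0 (q := q)
  intro t ht
  rw [hp, hq, mat_id (ne_of_lt hlt) ht, pleth_mul, hw _ (Bt_borel hlt ht), map_smul, map_smul,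
    Bt_prod (ne_of_lt hlt), smul_eq_mul]

end Vale.Agent.P181.FR
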